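import Vale.Agent.P196.Main

namespace Vale.Agent.Results.P196.SimpleAmenable

open Classical in
theorem result : ∃ (G : Type) (_ : Group G), Infinite G ∧ Group.IsFinitelyPresented G ∧
    IsSimpleGroup G ∧ ∀ (K : Finset G) (ε : ℝ), 0 < ε → ∃ D : Finset G, D.Nonempty ∧
      ∀ g ∈ K, ((symmDiff (D.image fun d => g * d) D).card : ℝ) < ε * D.card := by
  obtain ⟨G, hG, h1, h2, h3, h4⟩ := Vale.Agent.P196.main
  refine ⟨G, hG, h1, h2, h3, fun K ε hε => ?_⟩
  obtain ⟨D, hD, hne, h⟩ := h4 K ε hε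
  refine ⟨hD.toFinset, by simpa using hne, fun g hg => ?_⟩
  have h5 := h g hg
  rw [← Set.ncard_coe_finset, ← Set.ncard_coe_finset]
  simpa [Finset.coe_symmDiff] using h5

end Vale.Agent.Results.P196.SimpleAmenable
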